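import Crest.Agent.Lib_Snaky.Check

/-!
The eight oriented copies of Snaky as base patterns `S0 … S7`
(orientation index `o = 4*swap + 2*flipY + flipX`).
-/

set_option autoImplicit false

namespace Crest.Agent.Snaky

open Crest.CombinatoricsR.PolyominoGame

theorem mem_dec_of {U : ℕ} (a b : ℕ) (ha : a < 64) (h : U.testBit (b * 64 + a) = true) :
    ((a : ℤ), (b : ℤ)) ∈ (dec U : Set Cell) := by
  refine Finset.mem_coe.2 (mem_dec.2 ⟨b * 64 + a, h, ?_⟩)
  simp only [cellOf, Prod.mk.injEq, Nat.cast_inj]
  constructor <;> omega

theorem width_of {U w : ℕ} (n : ℕ) (hU : U < 2 ^ n)
    (h : ∀ i < n, U.testBit i = true → i % 64 < w) : ∀ i, U.testBit i = true → i % 64 < w := by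
  intro i hi
  by_cases hin : i < n
  · exact h i hin hi
  · exfalso
    have : U < 2 ^ i := lt_of_lt_of_le hU (Nat.pow_le_pow_right (by norm_num) (not_lt.1 hin))
    rw [Nat.testBit_lt_two_pow this] at hi
    exact Bool.false_ne_true hi

theorem S0 : PW ⟨0, 442721857769029238799, 0, 5, 0⟩ := by
  refine PW.ofCopy _ _ ⟨(0, 0), 1, 1, by norm_num, by norm_num, Or.inl ?_⟩
    (width_of 128 (by decide +kernel) (by decide +kernel))
  intro p hp
  simp only [snaky, Finset.mem_insert, Finset.mem_singleton] at hp
  rcases hp with rfl | rfl | rfl | rfl | rfl | rfl
  · have := mem_dec_of (U := 442721857769029238799) 0 0 (by norm_num) (by decide)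
    norm_num at this ⊢; exact this
  · have := mem_dec_of (U := 442721857769029238799) 1 0 (by norm_num) (by decide)
    norm_num at this ⊢; exact this
  · have := mem_dec_of (U := 442721857769029238799) 2 0 (by norm_num) (by decide)
    norm_num at this ⊢; exact this
  · have := mem_dec_of (U := 442721857769029238799) 3 0 (by norm_num) (by decide)
    norm_num at this ⊢; exact this
  · have := mem_dec_of (U := 442721857769029238799) 3 1 (by norm_num) (by decide)
    norm_num at this ⊢; exact this
  · have := mem_dec_of (U := 442721857769029238799) 4 1 (by norm_num) (by decide)
    norm_num at this ⊢; exact this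

theorem S1 : PW ⟨0, 55340232221128654878, 0, 5, 0⟩ := by
  refine PW.ofCopy _ _ ⟨(4, 0), -1, 1, by norm_num, by norm_num, Or.inl ?_⟩
    (width_of 128 (by decide +kernel) (by decide +kernel))
  intro p hp
  simp only [snaky, Finset.mem_insert, Finset.mem_singleton] at hp
  rcases hp with rfl | rfl | rfl | rfl | rfl | rfl
  · have := mem_dec_of (U := 55340232221128654878) 4 0 (by norm_num) (by decide)
    norm_num at this ⊢; exact this
  · have := mem_dec_of (U := 55340232221128654878) 3 0 (by norm_num) (by decide)
    norm_num at this ⊢; exact this
  · have := mem_dec_of (U := 55340232221128654878) 2 0 (by norm_num) (by decide)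
    norm_num at this ⊢; exact this
  · have := mem_dec_of (U := 55340232221128654878) 1 0 (by norm_num) (by decide)
    norm_num at this ⊢; exact this
  · have := mem_dec_of (U := 55340232221128654878) 1 1 (by norm_num) (by decide)
    norm_num at this ⊢; exact this
  · have := mem_dec_of (U := 55340232221128654878) 0 1 (by norm_num) (by decide)
    norm_num at this ⊢; exact this

theorem S2 : PW ⟨0, 276701161105643274264, 0, 5, 0⟩ := by
  refine PW.ofCopy _ _ ⟨(0, 1), 1, -1, by norm_num, by norm_num, Or.inl ?_⟩
    (width_of 128 (by decide +kernel) (by decide +kernel))
  intro p hp
  simp only [snaky, Finset.mem_insert, Finset.mem_singleton] at hp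
  rcases hp with rfl | rfl | rfl | rfl | rfl | rfl
  · have := mem_dec_of (U := 276701161105643274264) 0 1 (by norm_num) (by decide)
    norm_num at this ⊢; exact this
  · have := mem_dec_of (U := 276701161105643274264) 1 1 (by norm_num) (by decide)
    norm_num at this ⊢; exact this
  · have := mem_dec_of (U := 276701161105643274264) 2 1 (by norm_num) (by decide)
    norm_num at this ⊢; exact this
  · have := mem_dec_of (U := 276701161105643274264) 3 1 (by norm_num) (by decide)
    norm_num at this ⊢; exact this
  · have := mem_dec_of (U := 276701161105643274264) 3 0 (by norm_num) (by decide)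
    norm_num at this ⊢; exact this
  · have := mem_dec_of (U := 276701161105643274264) 4 0 (by norm_num) (by decide)
    norm_num at this ⊢; exact this

theorem S3 : PW ⟨0, 553402322211286548483, 0, 5, 0⟩ := by
  refine PW.ofCopy _ _ ⟨(4, 1), -1, -1, by norm_num, by norm_num, Or.inl ?_⟩
    (width_of 128 (by decide +kernel) (by decide +kernel))
  intro p hp
  simp only [snaky, Finset.mem_insert, Finset.mem_singleton] at hp
  rcases hp with rfl | rfl | rfl | rfl | rfl | rfl
  · have := mem_dec_of (U := 553402322211286548483) 4 1 (by norm_num) (by decide)
    norm_num at this ⊢; exact this
  · have := mem_dec_of (U := 553402322211286548483) 3 1 (by norm_num) (by decide)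
    norm_num at this ⊢; exact this
  · have := mem_dec_of (U := 553402322211286548483) 2 1 (by norm_num) (by decide)
    norm_num at this ⊢; exact this
  · have := mem_dec_of (U := 553402322211286548483) 1 1 (by norm_num) (by decide)
    norm_num at this ⊢; exact this
  · have := mem_dec_of (U := 553402322211286548483) 1 0 (by norm_num) (by decide)
    norm_num at this ⊢; exact this
  · have := mem_dec_of (U := 553402322211286548483) 0 0 (by norm_num) (by decide)
    norm_num at this ⊢; exact this

theorem S4 : PW ⟨0, 231584178474632390865973275223535857998387619967825065790704055700723840581633, 0, 2, 0⟩ := by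
  refine PW.ofCopy _ _ ⟨(0, 0), 1, 1, by norm_num, by norm_num, Or.inr ?_⟩
    (width_of 320 (by decide +kernel) (by decide +kernel))
  intro p hp
  simp only [snaky, Finset.mem_insert, Finset.mem_singleton] at hp
  rcases hp with rfl | rfl | rfl | rfl | rfl | rfl
  · have := mem_dec_of (U := 231584178474632390865973275223535857998387619967825065790704055700723840581633) 0 0 (by norm_num) (by decide)
    norm_num at this ⊢; exact this
  · have := mem_dec_of (U := 231584178474632390865973275223535857998387619967825065790704055700723840581633) 0 1 (by norm_num) (by decide)
    norm_num at this ⊢; exact this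
  · have := mem_dec_of (U := 231584178474632390865973275223535857998387619967825065790704055700723840581633) 0 2 (by norm_num) (by decide)
    norm_num at this ⊢; exact this
  · have := mem_dec_of (U := 231584178474632390865973275223535857998387619967825065790704055700723840581633) 0 3 (by norm_num) (by decide)
    norm_num at this ⊢; exact this
  · have := mem_dec_of (U := 231584178474632390865973275223535857998387619967825065790704055700723840581633) 1 3 (by norm_num) (by decide)
    norm_num at this ⊢; exact this
  · have := mem_dec_of (U := 231584178474632390865973275223535857998387619967825065790704055700723840581633) 1 4 (by norm_num) (by decide)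
    norm_num at this ⊢; exact this

theorem S5 : PW ⟨0, 115792089237316195429848086744074588617446056455769168919078654292030061019138, 0, 2, 0⟩ := by
  refine PW.ofCopy _ _ ⟨(0, 4), 1, -1, by norm_num, by norm_num, Or.inr ?_⟩
    (width_of 320 (by decide +kernel) (by decide +kernel))
  intro p hp
  simp only [snaky, Finset.mem_insert, Finset.mem_singleton] at hp
  rcases hp with rfl | rfl | rfl | rfl | rfl | rfl
  · have := mem_dec_of (U := 115792089237316195429848086744074588617446056455769168919078654292030061019138) 0 4 (by norm_num) (by decide)
    norm_num at this ⊢; exact this
  · have := mem_dec_of (U := 115792089237316195429848086744074588617446056455769168919078654292030061019138) 0 3 (by norm_num) (by decide)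
    norm_num at this ⊢; exact this
  · have := mem_dec_of (U := 115792089237316195429848086744074588617446056455769168919078654292030061019138) 0 2 (by norm_num) (by decide)
    norm_num at this ⊢; exact this
  · have := mem_dec_of (U := 115792089237316195429848086744074588617446056455769168919078654292030061019138) 0 1 (by norm_num) (by decide)
    norm_num at this ⊢; exact this
  · have := mem_dec_of (U := 115792089237316195429848086744074588617446056455769168919078654292030061019138) 1 1 (by norm_num) (by decide)
    norm_num at this ⊢; exact this
  · have := mem_dec_of (U := 115792089237316195429848086744074588617446056455769168919078654292030061019138) 1 0 (by norm_num) (by decide)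
    norm_num at this ⊢; exact this

theorem S6 : PW ⟨0, 115792089237316195442402290214847950145457917669105440214728293044316188704770, 0, 2, 0⟩ := by
  refine PW.ofCopy _ _ ⟨(1, 0), -1, 1, by norm_num, by norm_num, Or.inr ?_⟩
    (width_of 320 (by decide +kernel) (by decide +kernel))
  intro p hp
  simp only [snaky, Finset.mem_insert, Finset.mem_singleton] at hp
  rcases hp with rfl | rfl | rfl | rfl | rfl | rfl
  · have := mem_dec_of (U := 115792089237316195442402290214847950145457917669105440214728293044316188704770) 1 0 (by norm_num) (by decide)
    norm_num at this ⊢; exact this
  · have := mem_dec_of (U := 115792089237316195442402290214847950145457917669105440214728293044316188704770) 1 1 (by norm_num) (by decide)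
    norm_num at this ⊢; exact this
  · have := mem_dec_of (U := 115792089237316195442402290214847950145457917669105440214728293044316188704770) 1 2 (by norm_num) (by decide)
    norm_num at this ⊢; exact this
  · have := mem_dec_of (U := 115792089237316195442402290214847950145457917669105440214728293044316188704770) 1 3 (by norm_num) (by decide)
    norm_num at this ⊢; exact this
  · have := mem_dec_of (U := 115792089237316195442402290214847950145457917669105440214728293044316188704770) 0 3 (by norm_num) (by decide)
    norm_num at this ⊢; exact this
  · have := mem_dec_of (U := 115792089237316195442402290214847950145457917669105440214728293044316188704770) 0 4 (by norm_num) (by decide)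
    norm_num at this ⊢; exact this

theorem S7 : PW ⟨0, 231584178474632390859696173488149177234892112911538337838101968351838993383425, 0, 2, 0⟩ := by
  refine PW.ofCopy _ _ ⟨(1, 4), -1, -1, by norm_num, by norm_num, Or.inr ?_⟩
    (width_of 320 (by decide +kernel) (by decide +kernel))
  intro p hp
  simp only [snaky, Finset.mem_insert, Finset.mem_singleton] at hp
  rcases hp with rfl | rfl | rfl | rfl | rfl | rfl
  · have := mem_dec_of (U := 231584178474632390859696173488149177234892112911538337838101968351838993383425) 1 4 (by norm_num) (by decide)
    norm_num at this ⊢; exact this
  · have := mem_dec_of (U := 231584178474632390859696173488149177234892112911538337838101968351838993383425) 1 3 (by norm_num) (by decide)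
    norm_num at this ⊢; exact this
  · have := mem_dec_of (U := 231584178474632390859696173488149177234892112911538337838101968351838993383425) 1 2 (by norm_num) (by decide)
    norm_num at this ⊢; exact this
  · have := mem_dec_of (U := 231584178474632390859696173488149177234892112911538337838101968351838993383425) 1 1 (by norm_num) (by decide)
    norm_num at this ⊢; exact this
  · have := mem_dec_of (U := 231584178474632390859696173488149177234892112911538337838101968351838993383425) 0 1 (by norm_num) (by decide)
    norm_num at this ⊢; exact this
  · have := mem_dec_of (U := 231584178474632390859696173488149177234892112911538337838101968351838993383425) 0 0 (by norm_num) (by decide)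
    norm_num at this ⊢; exact this

/-- the base table: entries 0–7 are the oriented copies -/
def baseTbl : List R :=
  [⟨0, 442721857769029238799, 0, 5, 0⟩, ⟨0, 55340232221128654878, 0, 5, 0⟩, ⟨0, 276701161105643274264, 0, 5, 0⟩, ⟨0, 553402322211286548483, 0, 5, 0⟩, ⟨0, 231584178474632390865973275223535857998387619967825065790704055700723840581633, 0, 2, 0⟩, ⟨0, 115792089237316195429848086744074588617446056455769168919078654292030061019138, 0, 2, 0⟩, ⟨0, 115792089237316195442402290214847950145457917669105440214728293044316188704770, 0, 2, 0⟩, ⟨0, 231584178474632390859696173488149177234892112911538337838101968351838993383425, 0, 2, 0⟩]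

theorem baseTbl_ok : AllPW baseTbl := ⟨S0, S1, S2, S3, S4, S5, S6, S7, trivial⟩

end Crest.Agent.Snaky
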