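import Crest.Agent.Lib_Snaky.Syms

/-!
Kernel-friendly certificate checker for the zone calculus, on `Nat` bitmasks.
Bit `i` stands for the cell `(i % 64, i / 64)`.
-/

set_option autoImplicit false

namespace Crest.Agent.Snaky

open Crest.CombinatoricsR.PolyominoGame

/-- the cell coded by bit `i` -/
def cellOf (i : ℕ) : Cell := (((i % 64 : ℕ) : ℤ), ((i / 64 : ℕ) : ℤ))

theorem cellOf_injective : Function.Injective cellOf := by
  intro i j h
  simp only [cellOf, Prod.mk.injEq, Nat.cast_inj] at h
  omega

/-- the set of cells coded by a bitmask -/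
def dec (n : ℕ) : Finset Cell :=
  ((Finset.range n).filter (fun i => n.testBit i = true)).map ⟨cellOf, cellOf_injective⟩

theorem lt_of_testBit {n i : ℕ} (h : n.testBit i = true) : i < n :=
  lt_of_lt_of_le Nat.lt_two_pow_self (Nat.ge_two_pow_of_testBit h)

theorem mem_dec {n : ℕ} {c : Cell} : c ∈ dec n ↔ ∃ i, n.testBit i = true ∧ cellOf i = c := by
  simp only [dec, Finset.mem_map, Finset.mem_filter, Finset.mem_range, Function.Embedding.coeFn_mk]
  constructor
  · rintro ⟨i, ⟨_, h⟩, rfl⟩; exact ⟨i, h, rfl⟩
  · rintro ⟨i, h, rfl⟩; exact ⟨i, ⟨lt_of_testBit h, h⟩, rfl⟩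

theorem cellOf_mem_dec {n i : ℕ} : cellOf i ∈ dec n ↔ n.testBit i = true := by
  rw [mem_dec]
  constructor
  · rintro ⟨j, h, e⟩; rwa [← cellOf_injective e]
  · intro h; exact ⟨i, h, rfl⟩

theorem dec_subset {a b : ℕ} (h : ∀ i, a.testBit i = true → b.testBit i = true) : dec a ⊆ dec b := by
  intro c hc
  obtain ⟨i, hi, rfl⟩ := mem_dec.1 hc
  exact cellOf_mem_dec.2 (h i hi)

theorem dec_zero : dec 0 = ∅ := by
  ext c; simp [mem_dec]

theorem testBit_bit (x i : ℕ) : (1 <<< x).testBit i = decide (x = i) := by
  rw [Nat.one_shiftLeft, Nat.testBit_two_pow]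

theorem cellOf_add {i s : ℕ} (h : i % 64 + s % 64 < 64) : cellOf (i + s) = cellOf i + cellOf s := by
  simp only [cellOf, Prod.mk_add_mk, Prod.mk.injEq]
  constructor
  · have : (i + s) % 64 = i % 64 + s % 64 := by omega
    rw [this]; push_cast; ring
  · have : (i + s) / 64 = i / 64 + s / 64 := by omega
    rw [this]; push_cast; ring

theorem dec_shift {n s w : ℕ} (hw : ∀ i, n.testBit i = true → i % 64 < w) (hs : w + s % 64 ≤ 64) :
    dec (n <<< s) = (Sym.transl (cellOf s)).img (dec n) := by
  ext c
  simp only [Sym.img, Finset.mem_map, Equiv.coe_toEmbedding, Sym.transl_apply, mem_dec]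
  constructor
  · rintro ⟨j, hj, rfl⟩
    rw [Nat.testBit_shiftLeft] at hj
    simp only [ge_iff_le, Bool.and_eq_true, decide_eq_true_eq] at hj
    refine ⟨cellOf (j - s), ⟨j - s, hj.2, rfl⟩, ?_⟩
    have h1 := hw _ hj.2
    rw [← cellOf_add (by omega)]
    congr 1; omega
  · rintro ⟨_, ⟨i, hi, rfl⟩, rfl⟩
    refine ⟨i + s, ?_, cellOf_add (by have := hw _ hi; omega)⟩
    rw [Nat.testBit_shiftLeft]
    simp [hi]

theorem dec_and (a b : ℕ) : dec (a &&& b) = dec a ∩ dec b := by
  ext c
  simp only [Finset.mem_inter, mem_dec, Nat.testBit_and, Bool.and_eq_true]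
  constructor
  · rintro ⟨i, ⟨h1, h2⟩, rfl⟩; exact ⟨⟨i, h1, rfl⟩, ⟨i, h2, rfl⟩⟩
  · rintro ⟨⟨i, h1, rfl⟩, ⟨j, h2, e⟩⟩
    rw [cellOf_injective e] at h2
    exact ⟨i, ⟨h1, h2⟩, rfl⟩

/-! ### Uniform semantics of certificate nodes -/

/-- `Cov k U Zu Zi`: if Maker owns `U` and Breaker owns nothing in `Zu`, then after any Breaker reply
(or pass) outside `Zi`, Maker (to move) wins within `k` moves. -/
def Cov (k : ℕ) (U Zu Zi : Finset Cell) : Prop :=
  ∀ M B : Finset Cell, U ⊆ M → Disjoint M B → Disjoint Zu B →
    ∀ y : Cell, y ∉ M → y ∉ Zi → Win k M (insert y B)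

theorem PWin.cov {k : ℕ} {U Z : Finset Cell} (h : PWin k U Z) : Cov k U Z Z := by
  intro M B hM hd hz y hyM hyZ
  refine h M (insert y B) hM ?_ ?_
  · rw [Finset.disjoint_insert_right]; exact ⟨hyM, hd⟩
  · rw [Finset.disjoint_insert_right]; exact ⟨hyZ, hz⟩

theorem Cov.pwin {k : ℕ} {U Z Zi : Finset Cell} (h : Cov k U Z Zi) : PWin k U Z := by
  intro M B hM hd hz
  obtain ⟨y, hy⟩ := exists_free (M ∪ Zi)
  rw [Finset.mem_union, not_or] at hy
  exact (h M B hM hd hz y hy.1 hy.2).mono subset_rfl (Finset.subset_insert _ _) hd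

theorem Cov.both {ka kb : ℕ} {Ua Ub Za Zb Ia Ib : Finset Cell} (ha : Cov ka Ua Za Ia)
    (hb : Cov kb Ub Zb Ib) : Cov (max ka kb) (Ua ∪ Ub) (Za ∪ Zb) (Ia ∩ Ib) := by
  intro M B hM hd hz y hyM hyI
  rw [Finset.disjoint_union_left] at hz
  by_cases hya : y ∈ Ia
  · have hyb : y ∉ Ib := fun h => hyI (Finset.mem_inter.2 ⟨hya, h⟩)
    exact (hb M B (Finset.union_subset_right hM) hd hz.2 y hyM hyb).mono_k (le_max_right _ _)
  · exact (ha M B (Finset.union_subset_left hM) hd hz.1 y hyM hya).mono_k (le_max_left _ _)

theorem Cov.play {k : ℕ} {U Zu Zi U' Z' : Finset Cell} (x : Cell) (h : Cov k U Zu Zi)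
    (hI : Zi ⊆ U) (hU : U ⊆ insert x U') (hZ : Zu ⊆ Z') (hx : x ∈ Z') : Cov (k + 1) U' Z' Z' := by
  have hB : PWinB k U Zu := fun M B hM hd hz y hyM =>
    h M B hM hd hz y hyM (fun hy => hyM (hM (hI hy)))
  exact (PWin.play x hB hU hZ hx).cov

theorem Cov.sym (g : Sym) {k : ℕ} {U Zu Zi : Finset Cell} (h : Cov k U Zu Zi) :
    Cov k (g.img U) (g.img Zu) (g.img Zi) := by
  intro M B hM hd hz y hyM hyI
  have hMB : ∀ S : Finset Cell, g.img (S.map g.toEquiv.symm.toEmbedding) = S := by
    intro S
    ext c
    simp [Sym.img]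
  have h1 : Win k (M.map g.toEquiv.symm.toEmbedding)
      (insert (g.toEquiv.symm y) (B.map g.toEquiv.symm.toEmbedding)) := by
    apply h
    · intro c hc
      have : g.toEquiv c ∈ M := hM ((g.mem_img U c).2 hc)
      simpa using this
    · rw [Finset.disjoint_left]
      intro c hc hc'
      have a1 : g.toEquiv c ∈ M := by simpa using hc
      have a2 : g.toEquiv c ∈ B := by simpa using hc'
      exact (Finset.disjoint_left.1 hd) a1 a2
    · rw [Finset.disjoint_left]
      intro c hc hc'
      have a1 : g.toEquiv c ∈ g.img Zu := (g.mem_img Zu c).2 hc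
      have a2 : g.toEquiv c ∈ B := by simpa using hc'
      exact (Finset.disjoint_left.1 hz) a1 a2
    · intro hc
      apply hyM
      simpa using hc
    · intro hc
      apply hyI
      have := (g.mem_img Zi _).2 hc
      simpa using this
  have h2 := h1.sym g
  rw [Sym.img_insert, hMB, hMB] at h2
  simpa using h2

/-- results of the evaluation / table entries: `k` moves, Maker cells `U`, zone `Z`, width `w`,
inner zone `c` -/
structure R where
  k : ℕ
  U : ℕ
  Z : ℕ
  w : ℕ
  c : ℕ

/-- A proven pattern. -/
def PW (e : R) : Prop :=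
  Cov e.k (dec e.U) (dec e.Z) (dec e.c) ∧ ∀ i, (e.U ||| e.Z ||| e.c).testBit i = true → i % 64 < e.w

/-- certificate trees -/
inductive T : Type
  | ref (j s : ℕ)
  | play (x : ℕ) (t : T)
  | both (a b : T)
  | own (x : ℕ) (t : T)

/-- table lookup -/
def look : List R → ℕ → Option R
  | [], _ => none
  | e :: _, 0 => some e
  | _ :: l, j + 1 => look l j

/-- bottom-up evaluation -/
def eval (tbl : List R) : T → Option R
  | .ref j s =>
      match look tbl j with
      | some e =>
          match Nat.ble (e.w + s % 64) 64 with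
          | true => some ⟨e.k, e.U <<< s, e.Z <<< s, e.w + s % 64, e.c <<< s⟩
          | false => none
      | none => none
  | .play x t =>
      match eval tbl t with
      | some b =>
          match Nat.beq (b.c ||| b.U) b.U with
          | true => some ⟨b.k + 1, b.U ^^^ (b.U &&& (1 <<< x)), b.Z ||| (1 <<< x),
              max b.w (x % 64 + 1), b.Z ||| (1 <<< x)⟩
          | false => none
      | none => none
  | .both t1 t2 =>
      match eval tbl t1, eval tbl t2 with
      | some a, some b => some ⟨max a.k b.k, a.U ||| b.U, a.Z ||| b.Z, max a.w b.w, a.c &&& b.c⟩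
      | _, _ => none
  | .own x t =>
      match eval tbl t with
      | some b => some ⟨b.k, b.U ||| (1 <<< x), b.Z, max b.w (x % 64 + 1), b.c⟩
      | none => none

/-- all table entries are proven patterns -/
def AllPW : List R → Prop
  | [] => True
  | e :: l => PW e ∧ AllPW l

theorem AllPW.nil : AllPW [] := trivial

theorem AllPW.cons {e : R} {l : List R} (h : PW e) (hl : AllPW l) : AllPW (e :: l) := ⟨h, hl⟩

theorem look_PW : ∀ {tbl : List R}, AllPW tbl → ∀ {j : ℕ} {e : R}, look tbl j = some e → PW e
  | [], _, _, _, h => by simp [look] at h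
  | e' :: _, ht, 0, e, h => by
      simp only [look, Option.some.injEq] at h
      subst h; exact ht.1
  | _ :: l, ht, j + 1, e, h => by
      simp only [look] at h
      exact look_PW ht.2 h

theorem PW.shift {e : R} {s : ℕ} (h : PW e) (hs : e.w + s % 64 ≤ 64) :
    PW ⟨e.k, e.U <<< s, e.Z <<< s, e.w + s % 64, e.c <<< s⟩ := by
  obtain ⟨h1, h2⟩ := h
  constructor
  · show Cov e.k (dec (e.U <<< s)) (dec (e.Z <<< s)) (dec (e.c <<< s))
    rw [dec_shift (w := e.w) (fun i hi => h2 i (by simp [hi])) hs,
      dec_shift (w := e.w) (fun i hi => h2 i (by simp [hi])) hs,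
      dec_shift (w := e.w) (fun i hi => h2 i (by simp [hi])) hs]
    exact h1.sym _
  · intro j hj
    show j % 64 < e.w + s % 64
    have hj1 : ((e.U <<< s) ||| (e.Z <<< s) ||| (e.c <<< s)).testBit j = true := hj
    rw [Nat.testBit_or, Nat.testBit_or, Nat.testBit_shiftLeft, Nat.testBit_shiftLeft,
      Nat.testBit_shiftLeft] at hj1
    have hj' : s ≤ j ∧ (e.U ||| e.Z ||| e.c).testBit (j - s) = true := by
      rw [Nat.testBit_or, Nat.testBit_or]
      simp only [ge_iff_le, Bool.or_eq_true, Bool.and_eq_true, decide_eq_true_eq] at hj1 ⊢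
      tauto
    have := h2 _ hj'.2
    omega

theorem eval_sound {tbl : List R} (ht : AllPW tbl) : ∀ (t : T) (r : R), eval tbl t = some r → PW r := by
  intro t
  induction t with
  | ref j s =>
    intro r hr
    simp only [eval] at hr
    cases hl : look tbl j with
    | none => simp [hl] at hr
    | some e =>
      simp only [hl] at hr
      cases hb : Nat.ble (e.w + s % 64) 64 with
      | false => simp [hb] at hr
      | true =>
        simp only [hb, Option.some.injEq] at hr
        subst hr
        exact (look_PW ht hl).shift (Nat.le_of_ble_eq_true hb)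
  | both t1 t2 ih1 ih2 =>
    intro r hr
    simp only [eval] at hr
    cases ha : eval tbl t1 with
    | none => simp [ha] at hr
    | some a =>
      cases hb : eval tbl t2 with
      | none => simp [ha, hb] at hr
      | some b =>
        simp only [ha, hb, Option.some.injEq] at hr
        subst hr
        obtain ⟨pa, wa⟩ := ih1 a ha
        obtain ⟨pb, wb⟩ := ih2 b hb
        constructor
        · show Cov (max a.k b.k) (dec (a.U ||| b.U)) (dec (a.Z ||| b.Z)) (dec (a.c &&& b.c))
          have h := pa.both pb
          rw [dec_and]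
          intro M B hM hd hz
          refine h M B ?_ hd ?_
          · refine subset_trans ?_ hM
            exact Finset.union_subset (dec_subset fun i hi => by simp [hi])
              (dec_subset fun i hi => by simp [hi])
          · refine Finset.disjoint_of_subset_left ?_ hz
            exact Finset.union_subset (dec_subset fun i hi => by simp [hi])
              (dec_subset fun i hi => by simp [hi])
        · intro i hi
          show i % 64 < max a.w b.w
          have hi1 : ((a.U ||| b.U) ||| (a.Z ||| b.Z) ||| (a.c &&& b.c)).testBit i = true := hi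
          simp only [Nat.testBit_or, Nat.testBit_and, Bool.or_eq_true, Bool.and_eq_true] at hi1 wa wb
          rcases hi1 with ((hi1 | hi1) | (hi1 | hi1)) | ⟨hi1, _⟩
          · exact lt_of_lt_of_le (wa i (Or.inl (Or.inl hi1))) (le_max_left _ _)
          · exact lt_of_lt_of_le (wb i (Or.inl (Or.inl hi1))) (le_max_right _ _)
          · exact lt_of_lt_of_le (wa i (Or.inl (Or.inr hi1))) (le_max_left _ _)
          · exact lt_of_lt_of_le (wb i (Or.inl (Or.inr hi1))) (le_max_right _ _)
          · exact lt_of_lt_of_le (wa i (Or.inr hi1)) (le_max_left _ _)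
  | own x t ih =>
    intro r hr
    simp only [eval] at hr
    cases hb : eval tbl t with
    | none => simp [hb] at hr
    | some b =>
      simp only [hb, Option.some.injEq] at hr
      subst hr
      obtain ⟨pb, wb⟩ := ih b hb
      constructor
      · show Cov b.k (dec (b.U ||| (1 <<< x))) (dec b.Z) (dec b.c)
        intro M B hM hd hz
        exact pb M B (subset_trans (dec_subset fun i hi => by simp [hi]) hM) hd hz
      · intro i hi
        show i % 64 < max b.w (x % 64 + 1)
        have hi1 : ((b.U ||| (1 <<< x)) ||| b.Z ||| b.c).testBit i = true := hi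
        simp only [Nat.testBit_or, testBit_bit, Bool.or_eq_true, decide_eq_true_eq] at hi1 wb
        rcases hi1 with ((h | rfl) | h) | h
        · exact lt_of_lt_of_le (wb i (Or.inl (Or.inl h))) (le_max_left _ _)
        · exact lt_of_lt_of_le (Nat.lt_succ_self _) (le_max_right _ _)
        · exact lt_of_lt_of_le (wb i (Or.inl (Or.inr h))) (le_max_left _ _)
        · exact lt_of_lt_of_le (wb i (Or.inr h)) (le_max_left _ _)
  | play x t ih =>
    intro r hr
    simp only [eval] at hr
    cases hb : eval tbl t with
    | none => simp [hb] at hr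
    | some b =>
      simp only [hb] at hr
      cases hc : Nat.beq (b.c ||| b.U) b.U with
      | false => simp [hc] at hr
      | true =>
        simp only [hc, Option.some.injEq] at hr
        subst hr
        have hc' := Nat.eq_of_beq_eq_true hc
        obtain ⟨pb, wb⟩ := ih b hb
        constructor
        · show Cov (b.k + 1) (dec (b.U ^^^ (b.U &&& (1 <<< x)))) (dec (b.Z ||| (1 <<< x)))
            (dec (b.Z ||| (1 <<< x)))
          refine Cov.play (cellOf x) pb ?_ ?_ (dec_subset fun i hi => by simp [hi]) ?_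
          · refine dec_subset fun i hi => ?_
            rw [← hc', Nat.testBit_or, hi]; simp
          · intro c hcU
            obtain ⟨i, hi, rfl⟩ := mem_dec.1 hcU
            by_cases hix : x = i
            · subst hix; exact Finset.mem_insert_self _ _
            · refine Finset.mem_insert_of_mem (cellOf_mem_dec.2 ?_)
              rw [Nat.testBit_xor, Nat.testBit_and, testBit_bit, hi]
              simp [hix]
          · rw [cellOf_mem_dec, Nat.testBit_or, testBit_bit]; simp
        · intro i hi
          show i % 64 < max b.w (x % 64 + 1)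
          have hi1 : ((b.U ^^^ (b.U &&& (1 <<< x))) ||| (b.Z ||| (1 <<< x)) |||
            (b.Z ||| (1 <<< x))).testBit i = true := hi
          simp only [Nat.testBit_or, Nat.testBit_xor, Nat.testBit_and, testBit_bit,
            Bool.or_eq_true, decide_eq_true_eq] at hi1 wb
          have key : b.U.testBit i = true ∨ b.Z.testBit i = true ∨ x = i := by
            rcases hi1 with (hi1 | hi1 | hi1) | hi1 | hi1
            · left
              by_contra hcon
              simp [hcon] at hi1
            · exact Or.inr (Or.inl hi1)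
            · exact Or.inr (Or.inr hi1)
            · exact Or.inr (Or.inl hi1)
            · exact Or.inr (Or.inr hi1)
          rcases key with h | h | rfl
          · exact lt_of_lt_of_le (wb i (Or.inl (Or.inl h))) (le_max_left _ _)
          · exact lt_of_lt_of_le (wb i (Or.inl (Or.inr h))) (le_max_left _ _)
          · exact lt_of_lt_of_le (Nat.lt_succ_self _) (le_max_right _ _)

/-- Boolean check that the tree proves the pattern `e`. -/
def chk (tbl : List R) (t : T) (e : R) : Bool :=
  match eval tbl t with
  | some r => Nat.ble r.k e.k && Nat.beq r.U e.U && Nat.beq r.Z e.Z && Nat.ble r.w e.w &&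
      Nat.beq r.c e.c
  | none => false

theorem sound (tbl : List R) (ht : AllPW tbl) (t : T) {e : R} (h : chk tbl t e = true) : PW e := by
  unfold chk at h
  cases hr : eval tbl t with
  | none => simp [hr] at h
  | some r =>
    simp only [hr, Bool.and_eq_true] at h
    obtain ⟨⟨⟨⟨h1, h2⟩, h3⟩, h4⟩, h5⟩ := h
    have h1 := Nat.le_of_ble_eq_true h1
    have h2 := Nat.eq_of_beq_eq_true h2
    have h3 := Nat.eq_of_beq_eq_true h3
    have h4 := Nat.le_of_ble_eq_true h4
    have h5 := Nat.eq_of_beq_eq_true h5
    obtain ⟨p, wd⟩ := eval_sound ht t r hr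
    rw [h2, h3, h5] at p wd
    exact ⟨fun M B hM hd hz y hyM hyI => (p M B hM hd hz y hyM hyI).mono_k h1,
      fun i hi => lt_of_lt_of_le (wd i hi) h4⟩

/-- A pattern with empty `U` and `k ≤ 21` finishes the proof. -/
theorem PW.win {e : R} (h : PW e) (hU : e.U = 0) (hk : e.k ≤ 21) : Win 21 ∅ ∅ := by
  have h1 := h.1.pwin
  rw [hU, dec_zero] at h1
  exact h1.win.mono_k hk

/-! ### Oriented copies as base patterns -/

theorem PW.ofCopy (U w : ℕ) (hc : ContainsCopy (dec U : Set Cell))
    (hw : ∀ i, U.testBit i = true → i % 64 < w) : PW ⟨0, U, 0, w, 0⟩ :=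
  ⟨(PWin.leaf hc).cov, fun i hi => hw i (by simpa using hi)⟩

end Crest.Agent.Snaky
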