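import Crest.Agent.Lib_Snaky.Base

/-!
Second generation certificate checker: a certificate is a *program* (a balanced sequence of trees);
the pattern proved by each tree is computed by the checker itself and stored in a binary trie, so that
later trees can refer to it.  No intermediate pattern has to be written down.
-/

set_option autoImplicit false

namespace Crest.Agent.Snaky

/-- bottom-up evaluation -/
def evalG (lk : ℕ → Option R) : T → Option R
  | .ref j s =>
      match lk j with
      | some e =>
          match Nat.ble (e.w + s % 64) 64 with
          | true => some ⟨e.k, e.U <<< s, e.Z <<< s, e.w + s % 64, e.c <<< s⟩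
          | false => none
      | none => none
  | .play x t =>
      match evalG lk t with
      | some b =>
          match Nat.beq (b.c ||| b.U) b.U with
          | true => some ⟨b.k + 1, b.U ^^^ (b.U &&& (1 <<< x)), b.Z ||| (1 <<< x),
              max b.w (x % 64 + 1), b.Z ||| (1 <<< x)⟩
          | false => none
      | none => none
  | .both t1 t2 =>
      match evalG lk t1, evalG lk t2 with
      | some a, some b => some ⟨max a.k b.k, a.U ||| b.U, a.Z ||| b.Z, max a.w b.w, a.c &&& b.c⟩
      | _, _ => none
  | .own x t =>
      match evalG lk t with
      | some b => some ⟨b.k, b.U ||| (1 <<< x), b.Z, max b.w (x % 64 + 1), b.c⟩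
      | none => none


theorem evalG_sound {lk : ℕ → Option R} (ht : ∀ j e, lk j = some e → PW e) :
    ∀ (t : T) (r : R), evalG lk t = some r → PW r := by
  intro t
  induction t with
  | ref j s =>
    intro r hr
    simp only [evalG] at hr
    cases hl : lk j with
    | none => simp [hl] at hr
    | some e =>
      simp only [hl] at hr
      cases hb : Nat.ble (e.w + s % 64) 64 with
      | false => simp [hb] at hr
      | true =>
        simp only [hb, Option.some.injEq] at hr
        subst hr
        exact (ht _ _ hl).shift (Nat.le_of_ble_eq_true hb)
  | both t1 t2 ih1 ih2 =>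
    intro r hr
    simp only [evalG] at hr
    cases ha : evalG lk t1 with
    | none => simp [ha] at hr
    | some a =>
      cases hb : evalG lk t2 with
      | none => simp [ha, hb] at hr
      | some b =>
        simp only [ha, hb, Option.some.injEq] at hr
        subst hr
        obtain ⟨pa, wa⟩ := ih1 a ha
        obtain ⟨pb, wb⟩ := ih2 b hb
        constructor
        · show Cov (max a.k b.k) (dec (a.U ||| b.U)) (dec (a.Z ||| b.Z)) (dec (a.c &&& b.c))
          have h := pa.both pb
          rw [dec_and]
          intro M B hM hd hz
          refine h M B ?_ hd ?_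
          · refine subset_trans ?_ hM
            exact Finset.union_subset (dec_subset fun i hi => by simp [hi])
              (dec_subset fun i hi => by simp [hi])
          · refine Finset.disjoint_of_subset_left ?_ hz
            exact Finset.union_subset (dec_subset fun i hi => by simp [hi])
              (dec_subset fun i hi => by simp [hi])
        · intro i hi
          show i % 64 < max a.w b.w
          have hi1 : ((a.U ||| b.U) ||| (a.Z ||| b.Z) ||| (a.c &&& b.c)).testBit i = true := hi
          simp only [Nat.testBit_or, Nat.testBit_and, Bool.or_eq_true, Bool.and_eq_true] at hi1 wa wb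
          rcases hi1 with ((hi1 | hi1) | (hi1 | hi1)) | ⟨hi1, _⟩
          · exact lt_of_lt_of_le (wa i (Or.inl (Or.inl hi1))) (le_max_left _ _)
          · exact lt_of_lt_of_le (wb i (Or.inl (Or.inl hi1))) (le_max_right _ _)
          · exact lt_of_lt_of_le (wa i (Or.inl (Or.inr hi1))) (le_max_left _ _)
          · exact lt_of_lt_of_le (wb i (Or.inl (Or.inr hi1))) (le_max_right _ _)
          · exact lt_of_lt_of_le (wa i (Or.inr hi1)) (le_max_left _ _)
  | own x t ih =>
    intro r hr
    simp only [evalG] at hr
    cases hb : evalG lk t with
    | none => simp [hb] at hr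
    | some b =>
      simp only [hb, Option.some.injEq] at hr
      subst hr
      obtain ⟨pb, wb⟩ := ih b hb
      constructor
      · show Cov b.k (dec (b.U ||| (1 <<< x))) (dec b.Z) (dec b.c)
        intro M B hM hd hz
        exact pb M B (subset_trans (dec_subset fun i hi => by simp [hi]) hM) hd hz
      · intro i hi
        show i % 64 < max b.w (x % 64 + 1)
        have hi1 : ((b.U ||| (1 <<< x)) ||| b.Z ||| b.c).testBit i = true := hi
        simp only [Nat.testBit_or, testBit_bit, Bool.or_eq_true, decide_eq_true_eq] at hi1 wb
        rcases hi1 with ((h | rfl) | h) | h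
        · exact lt_of_lt_of_le (wb i (Or.inl (Or.inl h))) (le_max_left _ _)
        · exact lt_of_lt_of_le (Nat.lt_succ_self _) (le_max_right _ _)
        · exact lt_of_lt_of_le (wb i (Or.inl (Or.inr h))) (le_max_left _ _)
        · exact lt_of_lt_of_le (wb i (Or.inr h)) (le_max_left _ _)
  | play x t ih =>
    intro r hr
    simp only [evalG] at hr
    cases hb : evalG lk t with
    | none => simp [hb] at hr
    | some b =>
      simp only [hb] at hr
      cases hc : Nat.beq (b.c ||| b.U) b.U with
      | false => simp [hc] at hr
      | true =>
        simp only [hc, Option.some.injEq] at hr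
        subst hr
        have hc' := Nat.eq_of_beq_eq_true hc
        obtain ⟨pb, wb⟩ := ih b hb
        constructor
        · show Cov (b.k + 1) (dec (b.U ^^^ (b.U &&& (1 <<< x)))) (dec (b.Z ||| (1 <<< x)))
            (dec (b.Z ||| (1 <<< x)))
          refine Cov.play (cellOf x) pb ?_ ?_ (dec_subset fun i hi => by simp [hi]) ?_
          · refine dec_subset fun i hi => ?_
            rw [← hc', Nat.testBit_or, hi]; simp
          · intro c hcU
            obtain ⟨i, hi, rfl⟩ := mem_dec.1 hcU
            by_cases hix : x = i
            · subst hix; exact Finset.mem_insert_self _ _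
            · refine Finset.mem_insert_of_mem (cellOf_mem_dec.2 ?_)
              rw [Nat.testBit_xor, Nat.testBit_and, testBit_bit, hi]
              simp [hix]
          · rw [cellOf_mem_dec, Nat.testBit_or, testBit_bit]; simp
        · intro i hi
          show i % 64 < max b.w (x % 64 + 1)
          have hi1 : ((b.U ^^^ (b.U &&& (1 <<< x))) ||| (b.Z ||| (1 <<< x)) |||
            (b.Z ||| (1 <<< x))).testBit i = true := hi
          simp only [Nat.testBit_or, Nat.testBit_xor, Nat.testBit_and, testBit_bit,
            Bool.or_eq_true, decide_eq_true_eq] at hi1 wb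
          have key : b.U.testBit i = true ∨ b.Z.testBit i = true ∨ x = i := by
            rcases hi1 with (hi1 | hi1 | hi1) | hi1 | hi1
            · left
              by_contra hcon
              simp [hcon] at hi1
            · exact Or.inr (Or.inl hi1)
            · exact Or.inr (Or.inr hi1)
            · exact Or.inr (Or.inl hi1)
            · exact Or.inr (Or.inr hi1)
          rcases key with h | h | rfl
          · exact lt_of_lt_of_le (wb i (Or.inl (Or.inl h))) (le_max_left _ _)
          · exact lt_of_lt_of_le (wb i (Or.inl (Or.inr h))) (le_max_left _ _)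
          · exact lt_of_lt_of_le (Nat.lt_succ_self _) (le_max_right _ _)


/-- binary tries of patterns -/
inductive Tb : Type
  | nil
  | node (l : Tb) (v : Option R) (r : Tb)

/-- lookup -/
def Tb.get : Tb → ℕ → Option R
  | .nil, _ => none
  | .node l v r, j =>
      match Nat.beq j 0 with
      | true => v
      | false =>
          match Nat.beq ((j - 1) % 2) 0 with
          | true => l.get ((j - 1) / 2)
          | false => r.get ((j - 1) / 2)

/-- insertion (`d` = fuel = maximal depth) -/
def Tb.set : ℕ → Tb → ℕ → R → Tb
  | 0, _, _, e => .node .nil (some e) .nil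
  | d + 1, .nil, j, e =>
      match Nat.beq j 0 with
      | true => .node .nil (some e) .nil
      | false =>
          match Nat.beq ((j - 1) % 2) 0 with
          | true => .node (Tb.set d .nil ((j - 1) / 2) e) none .nil
          | false => .node .nil none (Tb.set d .nil ((j - 1) / 2) e)
  | d + 1, .node l v r, j, e =>
      match Nat.beq j 0 with
      | true => .node l (some e) r
      | false =>
          match Nat.beq ((j - 1) % 2) 0 with
          | true => .node (Tb.set d l ((j - 1) / 2) e) v r
          | false => .node l v (Tb.set d r ((j - 1) / 2) e)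

/-- all stored patterns are proven -/
def AllT : Tb → Prop
  | .nil => True
  | .node l v r => AllT l ∧ (∀ e, v = some e → PW e) ∧ AllT r

theorem Tb.get_PW : ∀ {t : Tb}, AllT t → ∀ (j : ℕ) (e : R), t.get j = some e → PW e
  | .nil, _, _, _, h => by simp [Tb.get] at h
  | .node l v r, ht, j, e, h => by
      simp only [Tb.get] at h
      cases h0 : Nat.beq j 0 with
      | true => simp only [h0] at h; exact ht.2.1 e h
      | false =>
        simp only [h0] at h
        cases h1 : Nat.beq ((j - 1) % 2) 0 with
        | true => simp only [h1] at h; exact Tb.get_PW ht.1 _ _ h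
        | false => simp only [h1] at h; exact Tb.get_PW ht.2.2 _ _ h

theorem AllT.single {e : R} (he : PW e) : AllT (.node .nil (some e) .nil) :=
  ⟨trivial, fun e' h => by simp only [Option.some.injEq] at h; subst h; exact he, trivial⟩

theorem Tb.set_AllT {e : R} (he : PW e) : ∀ (d : ℕ) (t : Tb) (j : ℕ), AllT t → AllT (Tb.set d t j e)
  | 0, _, _, _ => AllT.single he
  | d + 1, .nil, j, _ => by
      simp only [Tb.set]
      cases h0 : Nat.beq j 0 with
      | true => exact AllT.single he
      | false =>
        cases h1 : Nat.beq ((j - 1) % 2) 0 with
        | true => exact ⟨Tb.set_AllT he d .nil _ trivial, fun _ h => by simp at h, trivial⟩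
        | false => exact ⟨trivial, fun _ h => by simp at h, Tb.set_AllT he d .nil _ trivial⟩
  | d + 1, .node l v r, j, ht => by
      simp only [Tb.set]
      cases h0 : Nat.beq j 0 with
      | true =>
        exact ⟨ht.1, fun e' h => by simp only [Option.some.injEq] at h; subst h; exact he, ht.2.2⟩
      | false =>
        cases h1 : Nat.beq ((j - 1) % 2) 0 with
        | true => exact ⟨Tb.set_AllT he d l _ ht.1, ht.2.1, ht.2.2⟩
        | false => exact ⟨ht.1, ht.2.1, Tb.set_AllT he d r _ ht.2.2⟩

/-- programs: balanced sequences of trees -/
inductive Pg : Type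
  | one (t : T)
  | seq (a b : Pg)

/-- machine state: table, next free index, last result -/
structure St where
  tb : Tb
  n : ℕ
  last : R

/-- run a program -/
def run : Pg → Tb → ℕ → Option St
  | .one t, tb, n =>
      match evalG tb.get t with
      | some r => some ⟨Tb.set 40 tb n r, n + 1, r⟩
      | none => none
  | .seq a b, tb, n =>
      match run a tb n with
      | some s => run b s.tb s.n
      | none => none

theorem run_sound : ∀ (p : Pg) (tb : Tb) (n : ℕ) (s : St), AllT tb → run p tb n = some s →
    AllT s.tb ∧ PW s.last
  | .one t, tb, n, s, ht, h => by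
      simp only [run] at h
      cases hr : evalG tb.get t with
      | none => simp [hr] at h
      | some r =>
        simp only [hr, Option.some.injEq] at h
        subst h
        have hp : PW r := evalG_sound (fun j e => Tb.get_PW ht j e) t r hr
        exact ⟨Tb.set_AllT hp _ _ _ ht, hp⟩
  | .seq a b, tb, n, s, ht, h => by
      simp only [run] at h
      cases hr : run a tb n with
      | none => simp [hr] at h
      | some s1 =>
        simp only [hr] at h
        exact run_sound b s1.tb s1.n s (run_sound a tb n s1 ht hr).1 h

/-- the initial table: the entries of a list, at the indices `0, 1, …` -/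
def ofList : List R → Tb → ℕ → Tb
  | [], tb, _ => tb
  | e :: l, tb, n => ofList l (Tb.set 40 tb n e) (n + 1)

theorem ofList_AllT : ∀ (l : List R) (tb : Tb) (n : ℕ), AllPW l → AllT tb → AllT (ofList l tb n)
  | [], _, _, _, ht => ht
  | _ :: l, tb, n, hl, ht => ofList_AllT l _ _ hl.2 (Tb.set_AllT hl.1 _ _ _ ht)

/-- Boolean check: the program `p`, started with the table `tbl`, ends with the pattern `e`. -/
def chk2 (tbl : List R) (p : Pg) (e : R) : Bool :=
  match run p (ofList tbl .nil 0) tbl.length with
  | some s => Nat.ble s.last.k e.k && Nat.beq s.last.U e.U && Nat.beq s.last.Z e.Z &&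
      Nat.ble s.last.w e.w && Nat.beq s.last.c e.c
  | none => false

theorem sound2 (tbl : List R) (ht : AllPW tbl) (p : Pg) {e : R} (h : chk2 tbl p e = true) : PW e := by
  unfold chk2 at h
  cases hr : run p (ofList tbl .nil 0) tbl.length with
  | none => simp [hr] at h
  | some s =>
    simp only [hr, Bool.and_eq_true] at h
    obtain ⟨⟨⟨⟨h1, h2⟩, h3⟩, h4⟩, h5⟩ := h
    have h1 := Nat.le_of_ble_eq_true h1
    have h2 := Nat.eq_of_beq_eq_true h2
    have h3 := Nat.eq_of_beq_eq_true h3
    have h4 := Nat.le_of_ble_eq_true h4
    have h5 := Nat.eq_of_beq_eq_true h5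
    obtain ⟨p', wd⟩ := (run_sound p _ _ s (ofList_AllT tbl .nil 0 ht trivial) hr).2
    rw [h2, h3, h5] at p' wd
    exact ⟨fun M B hM hd hz y hyM hyI => (p' M B hM hd hz y hyM hyI).mono_k h1,
      fun i hi => lt_of_lt_of_le (wd i hi) h4⟩

end Crest.Agent.Snaky
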