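import Mathlib
import Crest.Prelude.Def_PolyominoGame

/-!
Game-theoretic reduction for S0047 (Snaky): an inductive "Maker wins within `k` more moves"
predicate on finite positions and the theorem that `Win 21 ∅ ∅` gives the policy statement.
-/

set_option autoImplicit false

namespace Crest.Agent.Snaky

open Crest.CombinatoricsR.PolyominoGame

/-- Cells of the board. -/
abbrev Cell : Type := ℤ × ℤ

/-- `Win k M B`: with Maker's cells `M`, Breaker's cells `B` and Maker to move, Maker can own a copy
of Snaky after at most `k` further Maker moves. -/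
inductive Win : ℕ → Finset Cell → Finset Cell → Prop
  | done {k : ℕ} {M B : Finset Cell} : ContainsCopy (M : Set Cell) → Win k M B
  | step {k : ℕ} {M B : Finset Cell} (x : Cell) : x ∉ M → x ∉ B →
      (∀ y : Cell, y ∉ insert x M → y ∉ B → Win k (insert x M) (insert y B)) → Win (k + 1) M B

theorem containsCopy_mono {X Y : Set Cell} (h : X ⊆ Y) (hX : ContainsCopy X) : ContainsCopy Y := by
  obtain ⟨t, e1, e2, h1, h2, h3⟩ := hX
  refine ⟨t, e1, e2, h1, h2, ?_⟩
  rcases h3 with h3 | h3
  · exact Or.inl fun p hp => h (h3 p hp)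
  · exact Or.inr fun p hp => h (h3 p hp)

/-- There is always a free cell. -/
theorem exists_free (S : Finset Cell) : ∃ z : Cell, z ∉ S := Infinite.exists_notMem_finset S

/-- Exact-length version: Maker makes exactly `k` further legal moves and then owns a copy. -/
def WinX : ℕ → Finset Cell → Finset Cell → Prop
  | 0, M, _ => ContainsCopy (M : Set Cell)
  | k + 1, M, B => ∃ x : Cell, x ∉ M ∧ x ∉ B ∧
      ∀ y : Cell, y ∉ insert x M → y ∉ B → WinX k (insert x M) (insert y B)

theorem winX_of_copy : ∀ (k : ℕ) (M B : Finset Cell), ContainsCopy (M : Set Cell) → WinX k M B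
  | 0, _, _, h => h
  | k + 1, M, B, h => by
      obtain ⟨x, hx⟩ := exists_free (M ∪ B)
      rw [Finset.mem_union, not_or] at hx
      refine ⟨x, hx.1, hx.2, fun y _ _ => winX_of_copy k _ _ (containsCopy_mono ?_ h)⟩
      intro c hc
      exact Finset.mem_coe.2 (Finset.mem_insert_of_mem (Finset.mem_coe.1 hc))

theorem Win.winX {k : ℕ} {M B : Finset Cell} (h : Win k M B) : WinX k M B := by
  induction h with
  | done h => exact winX_of_copy _ _ _ h
  | step x hxM hxB _ ih => exact ⟨x, hxM, hxB, ih⟩

open Classical in
/-- Maker's move in position `(M, B)` with `n` moves left: a winning move if there is one. -/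
noncomputable def move (n : ℕ) (M B : Finset Cell) : Cell :=
  if h : ∃ x : Cell, x ∉ M ∧ x ∉ B ∧
      ∀ y : Cell, y ∉ insert x M → y ∉ B → WinX (n - 1) (insert x M) (insert y B)
  then h.choose else (0, 0)

/-- The position after the replies listed in `l` (most recent first), Maker following `move`,
with `N` Maker moves in total. -/
noncomputable def stateR (N : ℕ) : List Cell → Finset Cell × Finset Cell
  | [] => (∅, ∅)
  | y :: l => (insert (move (N - l.length) (stateR N l).1 (stateR N l).2) (stateR N l).1,
      insert y (stateR N l).2)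

/-- The policy. -/
noncomputable def policy (N : ℕ) (l : List Cell) : Cell :=
  move (N - l.length) (stateR N l.reverse).1 (stateR N l.reverse).2

theorem move_spec {n : ℕ} {M B : Finset Cell} (h : WinX (n + 1) M B) :
    move (n + 1) M B ∉ M ∧ move (n + 1) M B ∉ B ∧
      ∀ y : Cell, y ∉ insert (move (n + 1) M B) M → y ∉ B →
        WinX n (insert (move (n + 1) M B) M) (insert y B) := by
  have h' : ∃ x : Cell, x ∉ M ∧ x ∉ B ∧
      ∀ y : Cell, y ∉ insert x M → y ∉ B → WinX (n + 1 - 1) (insert x M) (insert y B) := h
  unfold move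
  rw [dif_pos h']
  exact h'.choose_spec

section run

variable (N : ℕ) (b : ℕ → Cell)

/-- history after `k` replies, most recent first -/
theorem hist_succ (k : ℕ) :
    ((List.range (k + 1)).map b).reverse = b k :: ((List.range k).map b).reverse := by
  rw [List.range_succ, List.map_append, List.reverse_append]
  rfl

theorem claim_eq (k : ℕ) :
    makerClaim (policy N) b k =
      move (N - k) (stateR N ((List.range k).map b).reverse).1
        (stateR N ((List.range k).map b).reverse).2 := by
  unfold makerClaim policy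
  simp

theorem state_succ (k : ℕ) :
    stateR N ((List.range (k + 1)).map b).reverse =
      (insert (makerClaim (policy N) b k) (stateR N ((List.range k).map b).reverse).1,
        insert (b k) (stateR N ((List.range k).map b).reverse).2) := by
  rw [hist_succ, claim_eq]
  simp [stateR]

theorem mem_state_fst (k : ℕ) (c : Cell) :
    c ∈ (stateR N ((List.range k).map b).reverse).1 ↔ ∃ j, j < k ∧ c = makerClaim (policy N) b j := by
  induction k with
  | zero => simp [stateR]
  | succ k ih =>
    rw [state_succ]
    simp only [Finset.mem_insert, ih]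
    constructor
    · rintro (h | ⟨j, hj, h⟩)
      · exact ⟨k, Nat.lt_succ_self k, h⟩
      · exact ⟨j, Nat.lt_succ_of_lt hj, h⟩
    · rintro ⟨j, hj, h⟩
      rcases Nat.lt_succ_iff_lt_or_eq.1 hj with hj | rfl
      · exact Or.inr ⟨j, hj, h⟩
      · exact Or.inl h

theorem mem_state_snd (k : ℕ) (c : Cell) :
    c ∈ (stateR N ((List.range k).map b).reverse).2 ↔ ∃ j, j < k ∧ c = b j := by
  induction k with
  | zero => simp [stateR]
  | succ k ih =>
    rw [state_succ]
    simp only [Finset.mem_insert, ih]
    constructor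
    · rintro (h | ⟨j, hj, h⟩)
      · exact ⟨k, Nat.lt_succ_self k, h⟩
      · exact ⟨j, Nat.lt_succ_of_lt hj, h⟩
    · rintro ⟨j, hj, h⟩
      rcases Nat.lt_succ_iff_lt_or_eq.1 hj with hj | rfl
      · exact Or.inr ⟨j, hj, h⟩
      · exact Or.inl h

end run

/-- General form of the reduction: `WinX (n + 1) ∅ ∅` gives a policy whose first `n + 1` claims are
legal and contain a copy, against all reply sequences whose first `n` replies are legal. -/
theorem policy_spec (n : ℕ) (hw : WinX (n + 1) ∅ ∅) (b : ℕ → Cell)
    (hb : ∀ k : ℕ, k < n →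
      (∀ j : ℕ, j ≤ k → b k ≠ makerClaim (policy (n + 1)) b j) ∧ (∀ j : ℕ, j < k → b k ≠ b j)) :
    (∀ k : ℕ, k ≤ n →
      (∀ j : ℕ, j < k → makerClaim (policy (n + 1)) b k ≠ makerClaim (policy (n + 1)) b j) ∧
      (∀ j : ℕ, j < k → makerClaim (policy (n + 1)) b k ≠ b j)) ∧
    ContainsCopy {c | ∃ j : ℕ, j ≤ n ∧ c = makerClaim (policy (n + 1)) b j} := by
  set N := n + 1 with hN
  -- invariant
  have inv : ∀ k : ℕ, k ≤ n → WinX (N - k) (stateR N ((List.range k).map b).reverse).1
      (stateR N ((List.range k).map b).reverse).2 := by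
    intro k
    induction k with
    | zero => intro _; simpa [stateR] using hw
    | succ k ih =>
      intro hk
      have hk' : k ≤ n := Nat.le_of_succ_le hk
      have h1 := ih hk'
      have e1 : N - k = (N - (k + 1)) + 1 := by omega
      rw [e1] at h1
      have h2 := move_spec h1
      rw [← e1, ← claim_eq] at h2
      rw [state_succ]
      apply h2.2.2
      · rw [Finset.mem_insert, not_or, mem_state_fst]
        refine ⟨(hb k (by omega)).1 k le_rfl, ?_⟩
        rintro ⟨j, hj, h⟩
        exact (hb k (by omega)).1 j hj.le h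
      · rw [mem_state_snd]
        rintro ⟨j, hj, h⟩
        exact (hb k (by omega)).2 j hj h
  have spec : ∀ k : ℕ, k ≤ n →
      makerClaim (policy N) b k ∉ (stateR N ((List.range k).map b).reverse).1 ∧
      makerClaim (policy N) b k ∉ (stateR N ((List.range k).map b).reverse).2 ∧
      ∀ y : Cell, y ∉ insert (makerClaim (policy N) b k) (stateR N ((List.range k).map b).reverse).1 →
        y ∉ (stateR N ((List.range k).map b).reverse).2 →
        WinX (N - (k + 1)) (insert (makerClaim (policy N) b k)
          (stateR N ((List.range k).map b).reverse).1)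
          (insert y (stateR N ((List.range k).map b).reverse).2) := by
    intro k hk
    have h1 := inv k hk
    have e1 : N - k = (N - (k + 1)) + 1 := by omega
    rw [e1] at h1
    have h2 := move_spec h1
    rw [← e1, ← claim_eq] at h2
    exact h2
  refine ⟨fun k hk => ⟨fun j hj h => ?_, fun j hj h => ?_⟩, ?_⟩
  · exact (spec k hk).1 ((mem_state_fst N b k _).2 ⟨j, hj, h⟩)
  · exact (spec k hk).2.1 ((mem_state_snd N b k _).2 ⟨j, hj, h⟩)
  · have h3 := (spec n le_rfl).2.2
    obtain ⟨y, hy⟩ := exists_free
      (insert (makerClaim (policy N) b n) (stateR N ((List.range n).map b).reverse).1 ∪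
        (stateR N ((List.range n).map b).reverse).2)
    rw [Finset.mem_union, not_or] at hy
    have h4 := h3 y hy.1 hy.2
    have e2 : N - (n + 1) = 0 := by omega
    rw [e2] at h4
    have h5 : ContainsCopy ((insert (makerClaim (policy N) b n)
      (stateR N ((List.range n).map b).reverse).1 : Finset Cell) : Set Cell) := h4
    refine containsCopy_mono ?_ h5
    intro c hc
    have hc' := Finset.mem_coe.1 hc
    rw [Finset.mem_insert, mem_state_fst] at hc'
    rcases hc' with h | ⟨j, hj, h⟩
    · exact ⟨n, le_rfl, h⟩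
    · exact ⟨j, hj.le, h⟩

/-- The statement of S0047 follows from `Win 21 ∅ ∅`. -/
theorem result_of_win (hw : Win 21 ∅ ∅) :
    ∃ σ : List (ℤ × ℤ) → ℤ × ℤ, ∀ b : ℕ → ℤ × ℤ,
      (∀ k : ℕ, k < 20 →
        (∀ j : ℕ, j ≤ k → b k ≠ Crest.CombinatoricsR.PolyominoGame.makerClaim σ b j) ∧
        (∀ j : ℕ, j < k → b k ≠ b j)) →
      (∀ k : ℕ, k ≤ 20 →
        (∀ j : ℕ, j < k → Crest.CombinatoricsR.PolyominoGame.makerClaim σ b k ≠
          Crest.CombinatoricsR.PolyominoGame.makerClaim σ b j) ∧
        (∀ j : ℕ, j < k → Crest.CombinatoricsR.PolyominoGame.makerClaim σ b k ≠ b j)) ∧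
      Crest.CombinatoricsR.PolyominoGame.ContainsCopy
        {c | ∃ j : ℕ, j ≤ 20 ∧ c = Crest.CombinatoricsR.PolyominoGame.makerClaim σ b j} :=
  ⟨policy 21, fun b hb => policy_spec 20 hw.winX b hb⟩

end Crest.Agent.Snaky
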