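import Crest.Agent.Lib_Snaky.Game

/-!
Monotonicity and symmetry of `Win`, and the zone calculus `PWin` / `PWinB`.
-/

set_option autoImplicit false

namespace Crest.Agent.Snaky

open Crest.CombinatoricsR.PolyominoGame

theorem Win.mono_k {k : ℕ} {M B : Finset Cell} (h : Win k M B) : ∀ {k' : ℕ}, k ≤ k' → Win k' M B := by
  induction h with
  | done h => intro _ _; exact Win.done h
  | step x hxM hxB _ ih =>
    intro k' hk
    obtain ⟨k'', rfl⟩ : ∃ k'', k' = k'' + 1 := ⟨k' - 1, by omega⟩
    exact Win.step x hxM hxB fun y hy hyB => ih y hy hyB (by omega)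

theorem Win.mono {k : ℕ} {M B : Finset Cell} (h : Win k M B) :
    ∀ {M' B' : Finset Cell}, M ⊆ M' → B' ⊆ B → Disjoint M' B' → Win k M' B' := by
  induction h with
  | done h =>
    intro M' B' hM _ _
    exact Win.done (containsCopy_mono (Finset.coe_subset.2 hM) h)
  | @step k M B x hxM hxB _ ih =>
    intro M' B' hM hB hd
    -- the cell Maker really plays
    obtain ⟨z, hzM, hzB, hsub⟩ : ∃ z : Cell, z ∉ M' ∧ z ∉ B' ∧ insert x M ⊆ insert z M' := by
      by_cases hx : x ∈ M'
      · obtain ⟨z, hz⟩ := exists_free (M' ∪ B')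
        rw [Finset.mem_union, not_or] at hz
        refine ⟨z, hz.1, hz.2, ?_⟩
        intro c hc
        rcases Finset.mem_insert.1 hc with rfl | hc
        · exact Finset.mem_insert_of_mem hx
        · exact Finset.mem_insert_of_mem (hM hc)
      · exact ⟨x, hx, fun h => hxB (hB h), Finset.insert_subset_insert x hM⟩
    refine Win.step z hzM hzB fun y hy hyB => ?_
    have hyM : y ∉ insert x M := fun h => hy (hsub h)
    have hdis : Disjoint (insert z M') (insert y B') := by
      rw [Finset.disjoint_left]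
      intro c hc hc'
      rcases Finset.mem_insert.1 hc' with rfl | hc'
      · exact hy hc
      · rcases Finset.mem_insert.1 hc with rfl | hc
        · exact hzB hc'
        · exact (Finset.disjoint_left.1 hd) hc hc'
    by_cases hyB0 : y ∈ B
    · obtain ⟨y₀, hy₀⟩ := exists_free (insert x M ∪ B)
      rw [Finset.mem_union, not_or] at hy₀
      refine ih y₀ hy₀.1 hy₀.2 hsub ?_ hdis
      intro c hc
      rcases Finset.mem_insert.1 hc with rfl | hc
      · exact Finset.mem_insert_of_mem hyB0
      · exact Finset.mem_insert_of_mem (hB hc)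
    · exact ih y hyM hyB0 hsub (Finset.insert_subset_insert y hB) hdis

/-! ### Symmetries -/

/-- A symmetry of the board preserving the set of Snaky copies. -/
structure Sym where
  toEquiv : Cell ≃ Cell
  copy : ∀ X : Set Cell, ContainsCopy X → ContainsCopy (toEquiv '' X)

/-- image of a finite set under a symmetry -/
def Sym.img (g : Sym) (S : Finset Cell) : Finset Cell := S.map g.toEquiv.toEmbedding

theorem Sym.mem_img (g : Sym) (S : Finset Cell) (c : Cell) : g.toEquiv c ∈ g.img S ↔ c ∈ S := by
  simp [Sym.img]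

theorem Sym.img_insert (g : Sym) (S : Finset Cell) (c : Cell) :
    g.img (insert c S) = insert (g.toEquiv c) (g.img S) := by
  simp [Sym.img, Finset.map_insert]

theorem Win.sym (g : Sym) {k : ℕ} {M B : Finset Cell} (h : Win k M B) :
    Win k (g.img M) (g.img B) := by
  induction h with
  | @done k M B h =>
    refine Win.done ?_
    have := g.copy _ h
    simpa [Sym.img] using this
  | @step k M B x hxM hxB _ ih =>
    refine Win.step (g.toEquiv x) (by rwa [Sym.mem_img]) (by rwa [Sym.mem_img]) fun y hy hyB => ?_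
    obtain ⟨y', rfl⟩ := g.toEquiv.surjective y
    rw [← Sym.img_insert, Sym.mem_img] at hy
    rw [Sym.mem_img] at hyB
    have := ih y' hy hyB
    rwa [Sym.img_insert, Sym.img_insert] at this

/-! ### Zone calculus -/

/-- Maker to move: wins within `k` moves whenever he owns `U` and Breaker owns nothing in `Z`. -/
def PWin (k : ℕ) (U Z : Finset Cell) : Prop :=
  ∀ M B : Finset Cell, U ⊆ M → Disjoint M B → Disjoint Z B → Win k M B

/-- Breaker to move (he may also pass): afterwards Maker wins within `k` moves. -/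
def PWinB (k : ℕ) (U Z : Finset Cell) : Prop :=
  ∀ M B : Finset Cell, U ⊆ M → Disjoint M B → Disjoint Z B →
    ∀ y : Cell, y ∉ M → Win k M (insert y B)

theorem PWin.leaf {k : ℕ} {U Z : Finset Cell} (h : ContainsCopy (U : Set Cell)) : PWin k U Z :=
  fun _ _ hU _ _ => Win.done (containsCopy_mono (Finset.coe_subset.2 hU) h)

theorem PWin.weaken {k k' : ℕ} {U U' Z Z' : Finset Cell} (h : PWin k U Z) (hk : k ≤ k')
    (hU : U ⊆ U') (hZ : Z ⊆ Z') : PWin k' U' Z' :=
  fun M B hM hd hz => (h M B (hU.trans hM) hd (Finset.disjoint_of_subset_left hZ hz)).mono_k hk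

theorem PWinB.weaken {k k' : ℕ} {U U' Z Z' : Finset Cell} (h : PWinB k U Z) (hk : k ≤ k')
    (hU : U ⊆ U') (hZ : Z ⊆ Z') : PWinB k' U' Z' :=
  fun M B hM hd hz y hy =>
    (h M B (hU.trans hM) hd (Finset.disjoint_of_subset_left hZ hz) y hy).mono_k hk

/-- OR node: Maker plays `x`. -/
theorem PWin.play {k : ℕ} {U Z U' Z' : Finset Cell} (x : Cell) (h : PWinB k U Z)
    (hU : U ⊆ insert x U') (hZ : Z ⊆ Z') (hx : x ∈ Z') : PWin (k + 1) U' Z' := by
  intro M B hM hd hz
  have hxB : x ∉ B := fun hb => (Finset.disjoint_left.1 hz) hx hb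
  have hzB : Disjoint Z B := Finset.disjoint_of_subset_left hZ hz
  by_cases hxM : x ∈ M
  · obtain ⟨z, hz'⟩ := exists_free (M ∪ B)
    rw [Finset.mem_union, not_or] at hz'
    refine Win.step z hz'.1 hz'.2 fun y hy _ => ?_
    refine h (insert z M) B ?_ ?_ hzB y hy
    · intro c hc
      rcases Finset.mem_insert.1 (hU hc) with rfl | hc
      · exact Finset.mem_insert_of_mem hxM
      · exact Finset.mem_insert_of_mem (hM hc)
    · rw [Finset.disjoint_insert_left]; exact ⟨hz'.2, hd⟩
  · refine Win.step x hxM hxB fun y hy _ => ?_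
    refine h (insert x M) B ?_ ?_ hzB y hy
    · intro c hc
      rcases Finset.mem_insert.1 (hU hc) with rfl | hc
      · exact Finset.mem_insert_self _ _
      · exact Finset.mem_insert_of_mem (hM hc)
    · rw [Finset.disjoint_insert_left]; exact ⟨hxB, hd⟩

/-- AND node: `T0` answers every reply outside `Z0`; each `y ∈ Z0` (not owned by Maker) has its own
answer whose zone avoids `y`. -/
theorem PWinB.replies {k : ℕ} {U Z U0 Z0 : Finset Cell} (h0 : PWin k U0 Z0) (hU0 : U0 ⊆ U)
    (hZ0 : Z0 ⊆ Z)
    (hy : ∀ y ∈ Z0, y ∈ U ∨ ∃ Uy Zy : Finset Cell, PWin k Uy Zy ∧ Uy ⊆ U ∧ Zy ⊆ Z ∧ y ∉ Zy) :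
    PWinB k U Z := by
  intro M B hM hd hz y hyM
  have hdis : Disjoint M (insert y B) := by
    rw [Finset.disjoint_insert_right]; exact ⟨hyM, hd⟩
  by_cases hy0 : y ∈ Z0
  · rcases hy y hy0 with hyU | ⟨Uy, Zy, hw, hUy, hZy, hyZ⟩
    · exact absurd (hM hyU) hyM
    · refine hw M (insert y B) (hUy.trans hM) hdis ?_
      rw [Finset.disjoint_insert_right]
      exact ⟨hyZ, Finset.disjoint_of_subset_left hZy hz⟩
  · refine h0 M (insert y B) (hU0.trans hM) hdis ?_
    rw [Finset.disjoint_insert_right]
    exact ⟨hy0, Finset.disjoint_of_subset_left hZ0 hz⟩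

theorem PWin.sym (g : Sym) {k : ℕ} {U Z : Finset Cell} (h : PWin k U Z) :
    PWin k (g.img U) (g.img Z) := by
  intro M B hM hd hz
  -- pull back along g
  let g' : Sym := ⟨g.toEquiv, g.copy⟩
  have hMB : ∀ S : Finset Cell, g.img (S.map g.toEquiv.symm.toEmbedding) = S := by
    intro S
    ext c
    simp [Sym.img]
  have h1 : Win k (M.map g.toEquiv.symm.toEmbedding) (B.map g.toEquiv.symm.toEmbedding) := by
    apply h
    · intro c hc
      have : g.toEquiv c ∈ M := hM ((g.mem_img U c).2 hc)
      simpa using this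
    · rw [Finset.disjoint_left]
      intro c hc hc'
      have a1 : g.toEquiv c ∈ M := by simpa using hc
      have a2 : g.toEquiv c ∈ B := by simpa using hc'
      exact (Finset.disjoint_left.1 hd) a1 a2
    · rw [Finset.disjoint_left]
      intro c hc hc'
      have a1 : g.toEquiv c ∈ g.img Z := (g.mem_img Z c).2 hc
      have a2 : g.toEquiv c ∈ B := by simpa using hc'
      exact (Finset.disjoint_left.1 hz) a1 a2
  have h2 := h1.sym g
  rwa [hMB, hMB] at h2

theorem PWin.win {k : ℕ} {Z : Finset Cell} (h : PWin k ∅ Z) : Win k ∅ ∅ :=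
  h ∅ ∅ (Finset.empty_subset _) (Finset.disjoint_empty_left _) (Finset.disjoint_empty_right _)

end Crest.Agent.Snaky
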