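import Crest.Agent.Lib_Snaky.Check2

/-!
The root of the proof, modulo the dihedral symmetry: after Maker's first stone it is enough to answer
the replies in the octant `0 ≤ y ≤ x` (relative to that stone).
-/

set_option autoImplicit false

namespace Crest.Agent.Snaky

open Crest.CombinatoricsR.PolyominoGame

/-- every cell is the image of a cell of the octant `0 ≤ y ≤ x` under a symmetry fixing the origin -/
theorem exists_sym_octant (y : Cell) : ∃ (g : Sym) (y' : Cell), g.toEquiv (0, 0) = (0, 0) ∧
    g.toEquiv y' = y ∧ 0 ≤ y'.2 ∧ y'.2 ≤ y'.1 := by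
  obtain ⟨a, b⟩ := y
  by_cases ha : 0 ≤ a <;> by_cases hb : 0 ≤ b
  · by_cases hab : b ≤ a
    · exact ⟨Sym.one, (a, b), rfl, rfl, hb, hab⟩
    · exact ⟨Sym.swap, (b, a), rfl, rfl, ha, by simp only; omega⟩
  · by_cases hab : -b ≤ a
    · exact ⟨Sym.flipY, (a, -b), by simp, by simp, by simp only; omega, hab⟩
    · exact ⟨Sym.flipY.comp Sym.swap, (-b, a), by simp, by simp, ha, by simp only; omega⟩
  · by_cases hab : b ≤ -a
    · exact ⟨Sym.flipX, (-a, b), by simp, by simp, hb, hab⟩
    · exact ⟨Sym.flipX.comp Sym.swap, (b, -a), by simp, by simp, by simp only; omega,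
        by simp only; omega⟩
  · by_cases hab : -b ≤ -a
    · exact ⟨Sym.flipX.comp Sym.flipY, (-a, -b), by simp, by simp, by simp only; omega, hab⟩
    · exact ⟨(Sym.flipX.comp Sym.flipY).comp Sym.swap, (-b, -a), by simp, by simp,
        by simp only; omega, by simp only; omega⟩

/-- no bit `i < n`, `i ≠ o`, of `c` codes a cell of the octant based at the cell coded by `o` -/
def octChk (c o : ℕ) : ℕ → Bool
  | 0 => true
  | n + 1 =>
      match c.testBit n with
      | false => octChk c o n
      | true =>
          match Nat.ble (o / 64) (n / 64) && Nat.ble (n / 64 + o % 64) (n % 64 + o / 64) &&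
              !(Nat.beq n o) with
          | true => false
          | false => octChk c o n

theorem octChk_spec {c o : ℕ} : ∀ {n : ℕ}, octChk c o n = true → ∀ i, i < n → c.testBit i = true →
    ¬ (o / 64 ≤ i / 64 ∧ i / 64 + o % 64 ≤ i % 64 + o / 64 ∧ i ≠ o)
  | 0, _, i, hi, _ => by omega
  | n + 1, h, i, hi, hb => by
      simp only [octChk] at h
      cases hn : c.testBit n with
      | false =>
        simp only [hn] at h
        have hne : i ≠ n := by rintro rfl; rw [hn] at hb; exact Bool.noConfusion hb
        exact octChk_spec h i (by omega) hb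
      | true =>
        simp only [hn] at h
        cases hq : (Nat.ble (o / 64) (n / 64) && Nat.ble (n / 64 + o % 64) (n % 64 + o / 64) &&
            !(Nat.beq n o)) with
        | true => simp [hq] at h
        | false =>
          simp only [hq] at h
          by_cases hne : i = n
          · subst hne
            rintro ⟨h1, h2, h3⟩
            rw [Nat.ble_eq_true_of_le h1, Nat.ble_eq_true_of_le h2] at hq
            simp at hq
            exact h3 hq
          · exact octChk_spec h i (by omega) hb

theorem dec_bit (o : ℕ) : dec (1 <<< o) = {cellOf o} := by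
  ext c
  rw [mem_dec, Finset.mem_singleton]
  constructor
  · rintro ⟨i, hi, rfl⟩
    rw [testBit_bit] at hi
    simp only [decide_eq_true_eq] at hi
    rw [hi]
  · rintro rfl
    exact ⟨o, by rw [testBit_bit]; simp, rfl⟩

theorem Sym.img_singleton (g : Sym) (c : Cell) : g.img {c} = {g.toEquiv c} := by
  simp [Sym.img]

/-- A pattern whose only required stone is the cell `o`, with `k ≤ 20`, and whose uncovered replies
avoid the octant based at `o`, finishes the proof. -/
theorem PW.win_octant {e : R} (o N : ℕ) (h : PW e) (hU : e.U = 1 <<< o) (hk : e.k ≤ 20)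
    (hN : e.c < 2 ^ N) (hc : octChk e.c o N = true) : Win 21 ∅ ∅ := by
  refine Win.step (0, 0) (by simp) (by simp) ?_
  intro y hy _
  have hy0 : y ≠ (0, 0) := by
    intro h0; apply hy; rw [h0]; simp
  obtain ⟨g, y', hg0, hgy, h1, h2⟩ := exists_sym_octant y
  have hy'0 : y' ≠ (0, 0) := by
    rintro rfl; exact hy0 (hgy ▸ hg0)
  have hcov := h.1
  rw [hU, dec_bit] at hcov
  have hw : Win e.k {cellOf o} (insert (y' + cellOf o) ∅) := by
    apply hcov {cellOf o} ∅ subset_rfl (Finset.disjoint_empty_right _) (Finset.disjoint_empty_right _)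
    · rw [Finset.mem_singleton]
      intro h3
      apply hy'0
      have : y' + cellOf o = 0 + cellOf o := by rw [h3, zero_add]
      exact add_right_cancel this
    · intro h3
      obtain ⟨i, hi, hi'⟩ := mem_dec.1 h3
      have hiN : i < N := by
        by_contra hcon
        have : e.c.testBit i = false :=
          Nat.testBit_lt_two_pow (lt_of_lt_of_le hN (Nat.pow_le_pow_right (by norm_num) (by omega)))
        rw [this] at hi; exact Bool.noConfusion hi
      apply octChk_spec hc i hiN hi
      simp only [cellOf, Prod.ext_iff, Prod.fst_add, Prod.snd_add] at hi'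
      obtain ⟨e1, e2⟩ := hi'
      refine ⟨by omega, by omega, ?_⟩
      rintro rfl
      apply hy'0
      ext
      · simp only; omega
      · simp only; omega
  have hw2 := (hw.mono_k hk).sym (Sym.transl (-cellOf o))
  rw [Sym.img_singleton, Sym.img_insert] at hw2
  have hw3 := hw2.sym g
  rw [Sym.img_singleton, Sym.img_insert] at hw3
  simp only [Sym.transl_apply, add_neg_cancel, add_neg_cancel_right] at hw3
  have e0 : (0 : Cell) = (0, 0) := rfl
  rw [e0, hg0, hgy] at hw3
  simpa [Sym.img] using hw3

end Crest.Agent.Snaky
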