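import Crest.Agent.Lib_Snaky.Mono

/-!
Concrete symmetries: translations, the two reflections and the coordinate swap; composition.
-/

set_option autoImplicit false

namespace Crest.Agent.Snaky

open Crest.CombinatoricsR.PolyominoGame

/-- composition of symmetries (`g` after `f`) -/
def Sym.comp (g f : Sym) : Sym where
  toEquiv := f.toEquiv.trans g.toEquiv
  copy X h := by
    have := g.copy _ (f.copy X h)
    rw [Set.image_image] at this
    exact this

/-- translation by `t` -/
def Sym.transl (t : Cell) : Sym where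
  toEquiv := Equiv.addRight t
  copy X h := by
    obtain ⟨s, e1, e2, h1, h2, h3⟩ := h
    refine ⟨s + t, e1, e2, h1, h2, ?_⟩
    rcases h3 with h3 | h3
    · refine Or.inl fun p hp => ⟨_, h3 p hp, ?_⟩
      ext <;> simp <;> ring
    · refine Or.inr fun p hp => ⟨_, h3 p hp, ?_⟩
      ext <;> simp <;> ring

/-- reflection `(x, y) ↦ (-x, y)` -/
def Sym.flipX : Sym where
  toEquiv :=
    { toFun := fun c => (-c.1, c.2)
      invFun := fun c => (-c.1, c.2)
      left_inv := fun c => by simp
      right_inv := fun c => by simp }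
  copy X h := by
    obtain ⟨s, e1, e2, h1, h2, h3⟩ := h
    refine ⟨(-s.1, s.2), -e1, e2, ?_, h2, ?_⟩
    · rcases h1 with rfl | rfl <;> simp
    rcases h3 with h3 | h3
    · refine Or.inl fun p hp => ⟨_, h3 p hp, ?_⟩
      ext <;> simp <;> ring
    · refine Or.inr fun p hp => ⟨_, h3 p hp, ?_⟩
      ext <;> simp <;> ring

/-- reflection `(x, y) ↦ (x, -y)` -/
def Sym.flipY : Sym where
  toEquiv :=
    { toFun := fun c => (c.1, -c.2)
      invFun := fun c => (c.1, -c.2)
      left_inv := fun c => by simp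
      right_inv := fun c => by simp }
  copy X h := by
    obtain ⟨s, e1, e2, h1, h2, h3⟩ := h
    refine ⟨(s.1, -s.2), e1, -e2, h1, ?_, ?_⟩
    · rcases h2 with rfl | rfl <;> simp
    rcases h3 with h3 | h3
    · refine Or.inl fun p hp => ⟨_, h3 p hp, ?_⟩
      ext <;> simp <;> ring
    · refine Or.inr fun p hp => ⟨_, h3 p hp, ?_⟩
      ext <;> simp <;> ring

/-- coordinate swap `(x, y) ↦ (y, x)` -/
def Sym.swap : Sym where
  toEquiv := Equiv.prodComm ℤ ℤ
  copy X h := by
    obtain ⟨s, e1, e2, h1, h2, h3⟩ := h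
    refine ⟨(s.2, s.1), e2, e1, h2, h1, ?_⟩
    rcases h3 with h3 | h3
    · exact Or.inr fun p hp => ⟨_, h3 p hp, rfl⟩
    · exact Or.inl fun p hp => ⟨_, h3 p hp, rfl⟩

/-- identity -/
def Sym.one : Sym where
  toEquiv := Equiv.refl _
  copy X h := by simpa using h

@[simp] theorem Sym.transl_apply (t c : Cell) : (Sym.transl t).toEquiv c = c + t := rfl
@[simp] theorem Sym.flipX_apply (c : Cell) : Sym.flipX.toEquiv c = (-c.1, c.2) := rfl
@[simp] theorem Sym.flipY_apply (c : Cell) : Sym.flipY.toEquiv c = (c.1, -c.2) := rfl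
@[simp] theorem Sym.swap_apply (c : Cell) : Sym.swap.toEquiv c = (c.2, c.1) := rfl
@[simp] theorem Sym.one_apply (c : Cell) : Sym.one.toEquiv c = c := rfl
@[simp] theorem Sym.comp_apply (g f : Sym) (c : Cell) :
    (g.comp f).toEquiv c = g.toEquiv (f.toEquiv c) := rfl

end Crest.Agent.Snaky
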